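import Crest.Agent.R192.Iface

/-!
R192/A/Alg: the weighted `ℓ¹` group algebra, as the completion of the group algebra.
-/

set_option autoImplicit false

noncomputable section

namespace Crest.Agent.R192.A

open UniformSpace Crest.AlgebraR.L1

/-- a submultiplicative weight -/
structure Wt (G : Type) [Group G] where
  W : G → ℝ
  one_le : ∀ x, 1 ≤ W x
  mul_le : ∀ x y, W (x * y) ≤ W x * W y

variable {G : Type} [Group G]

theorem Wt.nn (W : Wt G) (x : G) : 0 ≤ W.W x := zero_le_one.trans (W.one_le x)

/-- the weighted `ℓ¹` norm on the group algebra -/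
def nm (W : Wt G) (a : MonoidAlgebra ℂ G) : ℝ := ∑ w ∈ a.coeff.support, ‖a.coeff w‖ * W.W w

theorem nm_eq (W : Wt G) (a : MonoidAlgebra ℂ G) {s : Finset G} (hs : a.coeff.support ⊆ s) :
    nm W a = ∑ w ∈ s, ‖a.coeff w‖ * W.W w :=
  Finset.sum_subset hs fun w _ hw => by rw [Finsupp.notMem_support_iff.1 hw, norm_zero, zero_mul]

theorem sum_le_nm (W : Wt G) (a : MonoidAlgebra ℂ G) (s : Finset G) :
    ∑ w ∈ s, ‖a.coeff w‖ * W.W w ≤ nm W a := by
  classical
  rw [nm_eq W a (Finset.subset_union_left (s₂ := s))]
  exact Finset.sum_le_sum_of_subset_of_nonneg Finset.subset_union_right fun w _ _ =>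
    mul_nonneg (norm_nonneg _) (W.nn w)

theorem nm_single (W : Wt G) (w : G) (z : ℂ) : nm W (MonoidAlgebra.single w z) = ‖z‖ * W.W w := by
  rw [nm_eq W (MonoidAlgebra.single w z) (s := {w}) Finsupp.support_single_subset]
  simp

/-- the group algebra with the weighted norm -/
def FA (_ : Wt G) : Type := MonoidAlgebra ℂ G

instance (W : Wt G) : Ring (FA W) := inferInstanceAs (Ring (MonoidAlgebra ℂ G))

def nmS (W : Wt G) : AddGroupSeminorm (FA W) where
  toFun := nm W
  map_zero' := by
    show nm W (0 : MonoidAlgebra ℂ G) = 0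
    simp [nm]
  add_le' := fun (a b : MonoidAlgebra ℂ G) => by
    classical
    show nm W (a + b) ≤ nm W a + nm W b
    have h1 := sum_le_nm W a (a + b).coeff.support
    have h2 := sum_le_nm W b (a + b).coeff.support
    refine le_trans ?_ (add_le_add h1 h2)
    rw [← Finset.sum_add_distrib]
    refine Finset.sum_le_sum fun w _ => ?_
    rw [← add_mul]
    exact mul_le_mul_of_nonneg_right (norm_add_le _ _) (W.nn w)
  neg' := fun (a : MonoidAlgebra ℂ G) => by
    show nm W (-a) = nm W a
    simp [nm]

instance (W : Wt G) : SeminormedAddCommGroup (FA W) := (nmS W).toSeminormedAddCommGroup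

/-- the identity map -/
def toFA (W : Wt G) : MonoidAlgebra ℂ G ≃+* FA W := RingEquiv.refl _

theorem norm_toFA (W : Wt G) (a : MonoidAlgebra ℂ G) : ‖toFA W a‖ = nm W a := rfl

theorem nm_mul (W : Wt G) (a b : MonoidAlgebra ℂ G) : nm W (a * b) ≤ nm W a * nm W b := by
  rw [MonoidAlgebra.mul_def, ← norm_toFA, Finsupp.sum, map_sum, nm, nm, Finset.sum_mul_sum]
  refine (norm_sum_le _ _).trans (Finset.sum_le_sum fun u _ => ?_)
  rw [Finsupp.sum, map_sum]
  refine (norm_sum_le _ _).trans (Finset.sum_le_sum fun v _ => ?_)
  rw [norm_toFA, nm_single, norm_mul, mul_mul_mul_comm]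
  exact mul_le_mul_of_nonneg_left (W.mul_le u v) (by positivity)

instance (W : Wt G) : SeminormedRing (FA W) :=
  { (inferInstance : SeminormedAddCommGroup (FA W)), (inferInstance : Ring (FA W)) with
    norm_mul_le := nm_mul W }

/-- the weighted `ℓ¹` algebra -/
abbrev BA (W : Wt G) : Type := Completion (FA W)

/-- the embedding of the group algebra -/
def ι (W : Wt G) : MonoidAlgebra ℂ G →+* BA W := Completion.coeRingHom.comp (toFA W).toRingHom

theorem norm_ι (W : Wt G) (a : MonoidAlgebra ℂ G) : ‖ι W a‖ = nm W a := Completion.norm_coe (toFA W a)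

theorem denseRange_ι (W : Wt G) : DenseRange (ι W) := Completion.denseRange_coe (α := FA W)

/-- coefficients -/
def co (W : Wt G) (w : G) : NormedAddGroupHom (BA W) ℂ :=
  (AddMonoidHom.mkNormedAddGroupHom (V := FA W)
    (AddMonoidHom.mk' (fun a : FA W => MonoidAlgebra.coeff a w) fun _ _ => rfl) 1
    fun (a : MonoidAlgebra ℂ G) => by
      have h := sum_le_nm W a {w}
      rw [Finset.sum_singleton] at h
      show ‖a.coeff w‖ ≤ 1 * nm W a
      have := W.one_le w
      have := norm_nonneg (a.coeff w)
      nlinarith).extension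

theorem co_ι (W : Wt G) (w : G) (a : MonoidAlgebra ℂ G) : co W w (ι W a) = a.coeff w :=
  NormedAddGroupHom.extension_coe _ (toFA W a)

theorem sum_co_le (W : Wt G) (x : BA W) (s : Finset G) : ∑ w ∈ s, ‖co W w x‖ * W.W w ≤ ‖x‖ := by
  refine (denseRange_ι W).induction_on x (isClosed_le (continuous_finsetSum _ fun w _ =>
    (co W w).continuous.norm.mul continuous_const) continuous_norm) fun a => ?_
  simp only [co_ι, norm_ι]
  exact sum_le_nm W a s

theorem summable_co (W : Wt G) (x : BA W) : Summable fun w => ‖co W w x‖ * W.W w :=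
  summable_of_sum_le (fun w => mul_nonneg (norm_nonneg _) (W.nn w)) (sum_co_le W x)

theorem summable_co' (W : Wt G) (x : BA W) : Summable fun w => ‖co W w x‖ :=
  (summable_co W x).of_nonneg_of_le (fun _ => norm_nonneg _) fun w =>
    le_mul_of_one_le_right (norm_nonneg _) (W.one_le w)

theorem tsum_co_le (W : Wt G) (x : BA W) : ∑' w, ‖co W w x‖ * W.W w ≤ ‖x‖ :=
  (summable_co W x).tsum_le_of_sum_le (sum_co_le W x)

theorem summable_sg (W : Wt G) {f : G → ℂ} (hf : Summable fun w => ‖f w‖ * W.W w) :
    Summable fun w => ‖ι W (MonoidAlgebra.single w (f w))‖ := by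
  simpa only [norm_ι, nm_single] using hf

theorem hasSum_sg (W : Wt G) (x : BA W) :
    HasSum (fun w => ι W (MonoidAlgebra.single w (co W w x))) x := by
  have hs : ∀ y : BA W, Summable fun w => ι W (MonoidAlgebra.single w (co W w y)) := fun y =>
    (summable_sg W (summable_co W y)).of_norm
  let σ : BA W →+ BA W := AddMonoidHom.mk' (fun y => ∑' w, ι W (MonoidAlgebra.single w (co W w y)))
    fun y y' => by
      rw [← (hs y).tsum_add (hs y')]
      simp only [map_add, MonoidAlgebra.single_add]
  have hσ : Continuous σ := AddMonoidHomClass.continuous_of_bound σ 1 fun y => by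
    refine (norm_tsum_le_tsum_norm (summable_sg W (summable_co W y))).trans ?_
    simp only [norm_ι, nm_single, one_mul]
    exact tsum_co_le W y
  have : σ x = x := by
    refine (denseRange_ι W).induction_on x (isClosed_eq hσ continuous_id) fun a => ?_
    show ∑' w, ι W (MonoidAlgebra.single w (co W w (ι W a))) = ι W a
    rw [tsum_eq_sum (s := a.coeff.support) fun w hw => by
      rw [co_ι, Finsupp.notMem_support_iff.1 hw, MonoidAlgebra.single_zero, map_zero], ← map_sum]
    simp only [co_ι]
    exact congrArg (ι W) (MonoidAlgebra.sum_coeff_single a)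
  have h2 : HasSum _ (σ x) := (hs x).hasSum
  rwa [this] at h2

theorem co_ext (W : Wt G) {x y : BA W} (h : ∀ w, co W w x = co W w y) : x = y := by
  have h1 := hasSum_sg W x
  simp only [h] at h1
  exact h1.unique (hasSum_sg W y)

theorem exists_co (W : Wt G) {f : G → ℂ} (hf : Summable fun w => ‖f w‖ * W.W w) :
    ∃ x : BA W, ∀ w, co W w x = f w := by
  classical
  refine ⟨∑' w, ι W (MonoidAlgebra.single w (f w)), fun v => ?_⟩
  have h := (summable_sg W hf).of_norm.hasSum.map (co W v) (co W v).continuous
  refine h.unique ?_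
  have : (co W v ∘ fun w => ι W (MonoidAlgebra.single w (f w))) = fun w => if w = v then f v else 0 := by
    funext w
    simp only [Function.comp, co_ι, MonoidAlgebra.coeff_single, Finsupp.single_apply]
    split_ifs with hw
    · rw [hw]
    · rfl
  rw [this]
  exact hasSum_ite_eq v (f v)

theorem co_mul (W : Wt G) (x y : BA W) (z : G) :
    co W z (x * y) = conv (fun w => co W w x) (fun w => co W w y) z := by
  have h1 : ∀ (w : G) (c : ℂ), co W z (ι W (MonoidAlgebra.single w c) * y) = c * co W (w⁻¹ * z) y := by
    intro w c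
    refine (denseRange_ι W).induction_on y (isClosed_eq
      ((co W z).continuous.comp (continuous_const.mul continuous_id))
      (continuous_const.mul (co W _).continuous)) fun a => ?_
    rw [← map_mul, co_ι, co_ι, MonoidAlgebra.coeff_single_mul_apply]
  have h := ((hasSum_sg W x).mul_right y).map (co W z) (co W z).continuous
  simp only [Function.comp_def, h1] at h
  exact h.tsum_eq.symm

/-- the trace along a set -/
def tr (W : Wt G) (C : Set G) : BA W →+ ℂ := AddMonoidHom.mk' (fun x => ∑' g : C, co W g x) fun x y => by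
  simp only [map_add]
  exact ((summable_co' W x).of_norm.subtype C).tsum_add ((summable_co' W y).of_norm.subtype C)

theorem continuous_tr (W : Wt G) (C : Set G) : Continuous (tr W C) :=
  AddMonoidHomClass.continuous_of_bound (tr W C) 1 fun x => by
    refine (norm_tsum_le_tsum_norm ((summable_co' W x).subtype C)).trans ?_
    refine ((summable_co' W x).tsum_subtype_le _ C fun _ => norm_nonneg _).trans ?_
    rw [one_mul]
    exact ((summable_co' W x).tsum_le_tsum (fun w => le_mul_of_one_le_right (norm_nonneg _) (W.one_le w))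
      (summable_co W x)).trans (tsum_co_le W x)

open Classical in
theorem tr_single (W : Wt G) (C : Set G) (w : G) (c : ℂ) :
    tr W C (ι W (MonoidAlgebra.single w c)) = if w ∈ C then c else 0 := by
  show ∑' g : C, co W g (ι W (MonoidAlgebra.single w c)) = _
  simp only [co_ι, MonoidAlgebra.coeff_single, Finsupp.single_apply]
  split_ifs with hw
  · rw [tsum_eq_single (⟨w, hw⟩ : C) fun g hg => if_neg fun h => hg (Subtype.ext h.symm), if_pos rfl]
  · exact (tsum_congr fun g : C => if_neg fun h : w = g => hw (h ▸ g.2)).trans tsum_zero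

theorem tr_comm (W : Wt G) (C : ConjClasses G) (x y : BA W) :
    tr W C.carrier (x * y) = tr W C.carrier (y * x) := by
  classical
  have hc := continuous_tr W C.carrier
  refine (denseRange_ι W).induction_on₂ (p := fun x y => tr W C.carrier (x * y) = tr W C.carrier (y * x))
    (isClosed_eq (hc.comp (continuous_fst.mul continuous_snd)) (hc.comp (continuous_snd.mul continuous_fst)))
    (fun a b => ?_) x y
  induction a using MonoidAlgebra.induction_linear with
  | zero => simp
  | add a a' h h' => simp only [map_add, add_mul, mul_add, h, h']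
  | single u c =>
    induction b using MonoidAlgebra.induction_linear with
    | zero => simp
    | add b b' h h' => simp only [map_add, add_mul, mul_add, h, h']
    | single v d =>
      rw [← map_mul, ← map_mul, MonoidAlgebra.single_mul_single, MonoidAlgebra.single_mul_single,
        tr_single, tr_single, mul_comm c d]
      have : ConjClasses.mk (u * v) = ConjClasses.mk (v * u) :=
        ConjClasses.mk_eq_mk_iff_isConj.2 (isConj_iff.2 ⟨v, by group⟩)
      exact if_congr (by rw [ConjClasses.mem_carrier_iff_mk_eq, ConjClasses.mem_carrier_iff_mk_eq, this])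
        rfl rfl

theorem classTrace_co (W : Wt G) {q : ℕ} (x : Matrix (Fin q) (Fin q) (BA W)) (C : Set G) :
    classTrace (fun i j w => co W w (x i j)) C = ∑ i, tr W C (x i i) :=
  Summable.tsum_finsetSum fun i _ => (summable_co' W (x i i)).of_norm.subtype C

theorem isIdem_iff (W : Wt G) {q : ℕ} (x : Matrix (Fin q) (Fin q) (BA W)) :
    IsL1IdempotentMatrix (fun i j w => co W w (x i j)) ↔ x * x = x := by
  have h : ∀ i j z, ∑ k, conv (fun w => co W w (x i k)) (fun w => co W w (x k j)) z =
      co W z ((x * x) i j) := fun i j z => by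
    simp only [Matrix.mul_apply, map_sum, co_mul]
  constructor
  · intro hx
    exact Matrix.ext fun i j => co_ext W fun z => (h i j z).symm.trans (hx.2 i j z)
  · intro hx
    exact ⟨fun i j => summable_co' W _, fun i j z => by rw [h, hx]⟩

section Map

variable (H : Subgroup G) (W : Wt H) (W' : Wt G)

theorem nm_map (h : ∀ x : H, W'.W x ≤ W.W x) (a : MonoidAlgebra ℂ H) :
    nm W' (MonoidAlgebra.mapDomainRingHom ℂ H.subtype a) ≤ nm W a := by
  conv_lhs => rw [← MonoidAlgebra.sum_coeff_single a]
  rw [← norm_toFA, Finsupp.sum, map_sum, map_sum, nm]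
  refine (norm_sum_le _ _).trans (Finset.sum_le_sum fun u _ => ?_)
  rw [norm_toFA, MonoidAlgebra.mapDomainRingHom_apply, MonoidAlgebra.mapDomain_single, nm_single]
  exact mul_le_mul_of_nonneg_left (h u) (norm_nonneg _)

/-- extension by zero -/
theorem exists_ext (h : ∀ x : H, W'.W x ≤ W.W x) : ∃ φ : BA W →+* BA W', (∀ x, ‖φ x‖ ≤ ‖x‖) ∧
    (∀ a, φ (ι W a) = ι W' (MonoidAlgebra.mapDomainRingHom ℂ H.subtype a)) ∧
    (∀ x (w : H), co W' w (φ x) = co W w x) ∧ ∀ x w, w ∉ H → co W' w (φ x) = 0 := by
  let f : FA W →+* FA W' := MonoidAlgebra.mapDomainRingHom ℂ H.subtype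
  have hf : Continuous f := AddMonoidHomClass.continuous_of_bound f 1 fun a => by
    rw [one_mul]; exact nm_map H W W' h a
  have hc : Continuous (Completion.mapRingHom f hf) := Completion.continuous_map
  have hι : ∀ a, Completion.mapRingHom f hf (ι W a) =
      ι W' (MonoidAlgebra.mapDomainRingHom ℂ H.subtype a) := fun a =>
    Completion.mapRingHom_coe hf (toFA W a)
  refine ⟨Completion.mapRingHom f hf, fun x => ?_, hι, fun x w => ?_, fun x w hw => ?_⟩
  · refine (denseRange_ι W).induction_on x (isClosed_le hc.norm continuous_norm) fun a => ?_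
    rw [hι, norm_ι, norm_ι]
    exact nm_map H W W' h a
  · refine (denseRange_ι W).induction_on x
      (isClosed_eq ((co W' w).continuous.comp hc) (co W w).continuous) fun a => ?_
    rw [hι, co_ι, co_ι]
    exact Finsupp.mapDomain_apply H.subtype_injective a.coeff w
  · refine (denseRange_ι W).induction_on x
      (isClosed_eq ((co W' w).continuous.comp hc) continuous_const) fun a => ?_
    rw [hι, co_ι]
    exact Finsupp.mapDomain_of_notMem_range a.coeff w fun ⟨y, hy⟩ => hw (hy ▸ y.2)

end Map

end Crest.Agent.R192.A
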