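import Crest.Agent.R192.Iface

/-!
R192/A/Ban: idempotents in Banach algebras (lifting of almost idempotents, traces of close idempotents).
-/

set_option autoImplicit false

namespace Crest.Agent.R192.A

open Metric

/-- an almost idempotent element of a Banach algebra is close to an idempotent -/
theorem exists_idem {A : Type} [NormedRing A] [CompleteSpace A] {a : A} {η : ℝ} (hη : η ≤ 1 / 100)
    (ha : ‖a * a - a‖ ≤ η) : ∃ p : A, p * p = p ∧ ‖p - a‖ ≤ (2 * ‖a‖ + 1) * (2 * η) := by
  have h0 : 0 ≤ η := (norm_nonneg _).trans ha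
  obtain ⟨b, hb⟩ : ∃ b, b = a - a * a := ⟨_, rfl⟩
  have hbn : ‖b‖ ≤ η := by rw [hb, norm_sub_rev]; exact ha
  have h4 : ∀ y : A, ‖(b + b + b + b) * y‖ ≤ 4 * η * ‖y‖ := fun y => by
    refine (norm_mul_le _ _).trans (mul_le_mul_of_nonneg_right ?_ (norm_nonneg _))
    have h1 := norm_add_le (b + b + b) b
    have h2 := norm_add_le (b + b) b
    have h3 := norm_add_le b b
    linarith
  let F : A → A := fun x => b - x * x + (b + b + b + b) * (x + x * x)
  let S : Set A := {x | ‖x‖ ≤ 2 * η ∧ x * a = a * x}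
  have hSc : IsClosed S := (isClosed_le continuous_norm continuous_const).inter
    (isClosed_eq (continuous_id.mul continuous_const) (continuous_const.mul continuous_id))
  have hsq : ∀ x ∈ S, ‖x * x‖ ≤ 4 * η ^ 2 := fun x hx => by
    have := norm_mul_le x x
    have := hx.1
    nlinarith [norm_nonneg x]
  have hmaps : Set.MapsTo F S S := fun x hx => by
    refine ⟨?_, ?_⟩
    · have h1 := norm_add_le (b - x * x) ((b + b + b + b) * (x + x * x))
      have h2 := norm_sub_le b (x * x)
      have h3 := h4 (x + x * x)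
      have h5 := norm_add_le x (x * x)
      have h6 := hsq x hx
      have h7 := hx.1
      have h8 : 4 * η * ‖x + x * x‖ ≤ 4 * η * (2 * η + 4 * η ^ 2) :=
        mul_le_mul_of_nonneg_left (by linarith) (by linarith)
      show ‖b - x * x + (b + b + b + b) * (x + x * x)‖ ≤ 2 * η
      nlinarith
    · have hx' : Commute x a := hx.2
      have hb' : Commute b a := by rw [hb]; exact (Commute.refl a).sub_left ((Commute.refl a).mul_left (Commute.refl a))
      exact ((hb'.sub_left (hx'.mul_left hx')).add_left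
        ((((hb'.add_left hb').add_left hb').add_left hb').mul_left (hx'.add_left (hx'.mul_left hx')))).eq
  have hlip : ∀ x ∈ S, ∀ y ∈ S, ‖F x - F y‖ ≤ 1 / 2 * ‖x - y‖ := fun x hx y hy => by
    have e1 : x * x - y * y = x * (x - y) + (x - y) * y := by noncomm_ring
    have e2 : F x - F y = -(x * x - y * y) + (b + b + b + b) * ((x - y) + (x * x - y * y)) := by
      simp only [F]; noncomm_ring
    have h1 : ‖x * x - y * y‖ ≤ 4 * η * ‖x - y‖ := by
      rw [e1]
      have := norm_add_le (x * (x - y)) ((x - y) * y)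
      have := norm_mul_le x (x - y)
      have := norm_mul_le (x - y) y
      have := mul_le_mul_of_nonneg_right hx.1 (norm_nonneg (x - y))
      have := mul_le_mul_of_nonneg_left hy.1 (norm_nonneg (x - y))
      linarith
    rw [e2]
    have h2 := norm_add_le (-(x * x - y * y)) ((b + b + b + b) * ((x - y) + (x * x - y * y)))
    rw [norm_neg] at h2
    have h3 := h4 ((x - y) + (x * x - y * y))
    have h5 := norm_add_le (x - y) (x * x - y * y)
    have h6 : 4 * η * ‖(x - y) + (x * x - y * y)‖ ≤ 4 * η * (‖x - y‖ + 4 * η * ‖x - y‖) :=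
      mul_le_mul_of_nonneg_left (by linarith) (by linarith)
    have h7 : 0 ≤ ‖x - y‖ := norm_nonneg _
    have h8 : η * ‖x - y‖ ≤ 1 / 100 * ‖x - y‖ := mul_le_mul_of_nonneg_right hη h7
    have h9 : η * (η * ‖x - y‖) ≤ 1 / 100 * (1 / 100 * ‖x - y‖) :=
      mul_le_mul hη h8 (mul_nonneg h0 h7) (by norm_num)
    nlinarith
  have hc : ContractingWith (1 / 2) (hmaps.restrict F S S) := by
    refine ⟨by norm_num, LipschitzWith.of_dist_le_mul fun x y => ?_⟩
    rw [Subtype.dist_eq, Subtype.dist_eq, dist_eq_norm, dist_eq_norm]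
    simpa using hlip x x.2 y y.2
  have h0S : (0 : A) ∈ S := ⟨by rw [norm_zero]; linarith, by simp⟩
  obtain ⟨x, hxS, hfix, -⟩ := hc.exists_fixedPoint' hSc.isComplete hmaps h0S (edist_ne_top _ _)
  have hxa : x * a = a * x := hxS.2
  have hF : b - x * x + (b + b + b + b) * (x + x * x) = x := hfix
  refine ⟨a + ((a + a) * x - x), ?_, ?_⟩
  · have e : (a + ((a + a) * x - x)) * (a + ((a + a) * x - x)) - (a + ((a + a) * x - x)) =
        x - (b - x * x + (b + b + b + b) * (x + x * x)) + ((a + a) * (x * a - a * x) - (x * a - a * x)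
          + (a + a) * ((x * a - a * x) + (x * a - a * x)) * x - ((x * a - a * x) + (x * a - a * x)) * x) := by
      rw [hb]; noncomm_ring
    rw [hF, hxa] at e
    simpa [sub_eq_zero] using e
  · rw [add_sub_cancel_left]
    have h1 := norm_sub_le ((a + a) * x) x
    have h2 := norm_mul_le (a + a) x
    have h3 := norm_add_le a a
    have h5 := hxS.1
    have h6 : ‖a + a‖ * ‖x‖ ≤ (2 * ‖a‖) * (2 * η) :=
      mul_le_mul (by linarith) h5 (norm_nonneg _) (by positivity)
    linarith

/-- close idempotents have the same trace -/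
theorem trace_eq {A : Type} [NormedRing A] [CompleteSpace A] (T : A → ℂ) (hT : ∀ x y, T (x * y) = T (y * x))
    {p p' : A} (hp : p * p = p) (hp' : p' * p' = p') (h : (2 * ‖p‖ + 1) * ‖p' - p‖ < 1) : T p' = T p := by
  have ht : ‖(p' - p) - (p + p) * (p' - p)‖ < 1 := by
    have h1 := norm_sub_le (p' - p) ((p + p) * (p' - p))
    have h2 := norm_mul_le (p + p) (p' - p)
    have h3 := mul_le_mul_of_nonneg_right (norm_add_le p p) (norm_nonneg (p' - p))
    linarith
  let u := Units.oneSub _ ht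
  have hu : (u : A) * p' = p * u := by
    show (1 - ((p' - p) - (p + p) * (p' - p))) * p' = p * (1 - ((p' - p) - (p + p) * (p' - p)))
    have e : (1 - ((p' - p) - (p + p) * (p' - p))) * p' - p * (1 - ((p' - p) - (p + p) * (p' - p))) =
        -(p' * p' - p') + (p + p) * (p' * p' - p') - (p * p - p) * (p' + p' + p' + p')
          + (p * p - p) * (p + p) + (p * p - p) := by noncomm_ring
    rw [hp, hp'] at e
    simpa [sub_eq_zero] using e
  calc T p' = T ((↑u⁻¹ : A) * (p * u)) := by rw [← hu, ← mul_assoc, Units.inv_mul, one_mul]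
    _ = T p := by rw [hT, mul_assoc, Units.mul_inv, mul_one]

section Mat

attribute [local instance] Matrix.linftyOpNormedRing

variable {q : ℕ}

theorem mat_complete {B : Type} [NormedRing B] [CompleteSpace B] :
    @CompleteSpace (Matrix (Fin q) (Fin q) B) PseudoMetricSpace.toUniformSpace :=
  inferInstanceAs (CompleteSpace (Fin q → Fin q → B))

attribute [local instance] mat_complete

theorem entry_le {B : Type} [NormedRing B] (a : Matrix (Fin q) (Fin q) B) (i j : Fin q) : ‖a i j‖ ≤ ‖a‖ := by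
  have h : ‖a i j‖₊ ≤ ‖a‖₊ := by
    rw [Matrix.linfty_opNNNorm_def]
    exact (Finset.single_le_sum (f := fun j => ‖a i j‖₊) (fun _ _ => zero_le) (Finset.mem_univ j)).trans
      (Finset.le_sup (f := fun i => ∑ j, ‖a i j‖₊) (Finset.mem_univ i))
  exact h

theorem le_of_entry {B : Type} [NormedRing B] (a : Matrix (Fin q) (Fin q) B) {t : ℝ} (ht : 0 ≤ t)
    (h : ∀ i j, ‖a i j‖ ≤ t) : ‖a‖ ≤ q * t := by
  lift t to NNReal using ht
  have h' : ‖a‖₊ ≤ q * t := by
    rw [Matrix.linfty_opNNNorm_def]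
    refine Finset.sup_le fun i _ => (Finset.sum_le_sum (g := fun _ => t) fun j _ => h i j).trans ?_
    simp
  exact_mod_cast h'

theorem mat_exists_idem (q : ℕ) {K ε : ℝ} (hK : 0 ≤ K) (hε : 0 < ε) : ∃ η : ℝ, 0 < η ∧
    ∀ (B : Type) [NormedRing B] [CompleteSpace B] (a : Matrix (Fin q) (Fin q) B), (∀ i j, ‖a i j‖ ≤ K) →
      (∀ i j, ‖(a * a - a) i j‖ ≤ η) → ∃ p : Matrix (Fin q) (Fin q) B, p * p = p ∧ ∀ i j, ‖p i j - a i j‖ ≤ ε := by
  have hq : (0 : ℝ) ≤ q := Nat.cast_nonneg q
  have hc : 0 < (2 * (q * K) + 1) * 2 := by positivity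
  refine ⟨min (1 / 100) (ε / ((2 * (q * K) + 1) * 2)) / (q + 1), by positivity, fun B _ _ a ha hη => ?_⟩
  set η := min (1 / 100) (ε / ((2 * (q * K) + 1) * 2)) with hηd
  have hη0 : 0 < η := by positivity
  have h1 : ‖a * a - a‖ ≤ η := by
    refine (le_of_entry _ (by positivity) hη).trans ?_
    rw [← mul_div_assoc, div_le_iff₀ (by positivity)]
    nlinarith
  obtain ⟨p, hp, hpa⟩ := exists_idem (min_le_left _ _) h1
  refine ⟨p, hp, fun i j => (entry_le (p - a) i j).trans (hpa.trans ?_)⟩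
  have h2 := le_of_entry a hK ha
  have h3 : η * ((2 * (q * K) + 1) * 2) ≤ ε := (le_div_iff₀ hc).1 (min_le_right _ _)
  have h4 : (2 * ‖a‖ + 1) * (2 * η) ≤ (2 * (q * K) + 1) * (2 * η) :=
    mul_le_mul_of_nonneg_right (by linarith) (by positivity)
  linarith

theorem mat_trace_eq (q : ℕ) {K : ℝ} (hK : 0 ≤ K) : ∃ ε : ℝ, 0 < ε ∧
    ∀ (B : Type) [NormedRing B] [CompleteSpace B] (t : B →+ ℂ), (∀ x y, t (x * y) = t (y * x)) →
      ∀ p p' : Matrix (Fin q) (Fin q) B, p * p = p → p' * p' = p' → (∀ i j, ‖p i j‖ ≤ K) →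
        (∀ i j, ‖p' i j - p i j‖ ≤ ε) → ∑ i, t (p' i i) = ∑ i, t (p i i) := by
  have hq : (0 : ℝ) ≤ q := Nat.cast_nonneg q
  have hc : 0 < (2 * (q * K) + 1) * (q + 1) := by positivity
  refine ⟨1 / ((2 * (q * K) + 1) * (q + 1)), by positivity, fun B _ _ t ht p p' hp hp' hK' hε => ?_⟩
  refine trace_eq (fun x : Matrix (Fin q) (Fin q) B => ∑ i, t (x i i)) (fun x y => ?_) hp hp' ?_
  · simp only [Matrix.mul_apply, map_sum]
    rw [Finset.sum_comm]
    exact Finset.sum_congr rfl fun i _ => Finset.sum_congr rfl fun j _ => ht _ _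
  · have h1 := le_of_entry p hK hK'
    have h2 := le_of_entry (p' - p) (by positivity) hε
    have h3 : (2 * ‖p‖ + 1) * ‖p' - p‖ ≤ (2 * (q * K) + 1) * (q * (1 / ((2 * (q * K) + 1) * (q + 1)))) :=
      mul_le_mul (by linarith) h2 (norm_nonneg _) (by positivity)
    refine h3.trans_lt ?_
    rw [← mul_assoc, mul_one_div, div_lt_one hc]
    have : 0 < 2 * (q * K) + 1 := by positivity
    nlinarith

end Mat

end Crest.Agent.R192.A
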