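import Crest.Agent.R192.Iface

/-!
R192/A/Len: word length on a finitely generated group; class traces of functions supported on a subgroup.
-/

set_option autoImplicit false

namespace Crest.Agent.R192.A

open Crest.AlgebraR.L1
open scoped Pointwise

theorem exists_len (H : Type) [Group H] [h : Group.FG H] : Nonempty (Len H) := by
  classical
  obtain ⟨S, hS⟩ := Group.fg_def.1 h
  let A : Finset H := insert 1 (S ∪ S⁻¹)
  have h1 : (1 : H) ∈ A := Finset.mem_insert_self _ _
  have hinv : A⁻¹ = A := by
    ext x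
    simp only [A, Finset.mem_inv', Finset.mem_insert, Finset.mem_union, inv_inv, inv_eq_one]
    tauto
  have hi : ∀ (r : ℕ) (x : H), x ∈ A ^ r → x⁻¹ ∈ A ^ r := fun r x hx => by
    rw [← hinv, inv_pow]; exact Finset.inv_mem_inv hx
  have hm : ∀ (r s : ℕ) (x y : H), x ∈ A ^ r → y ∈ A ^ s → x * y ∈ A ^ (r + s) := fun r s x y hx hy => by
    rw [pow_add]; exact Finset.mul_mem_mul hx hy
  have hex : ∀ x : H, ∃ r : ℕ, x ∈ A ^ r := fun x => by
    have hx : x ∈ Subgroup.closure (S : Set H) := by rw [hS]; exact Subgroup.mem_top x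
    induction hx using Subgroup.closure_induction with
    | mem x hx => exact ⟨1, by rw [pow_one]; exact Finset.mem_insert_of_mem (Finset.mem_union_left _ hx)⟩
    | one => exact ⟨1, by rw [pow_one]; exact h1⟩
    | mul x y _ _ hx hy =>
      obtain ⟨r, hr⟩ := hx
      obtain ⟨s, hs⟩ := hy
      exact ⟨_, hm r s x y hr hs⟩
    | inv x _ hx =>
      obtain ⟨r, hr⟩ := hx
      exact ⟨r, hi r x hr⟩
  have hball : ∀ r, {x | Nat.find (hex x) ≤ r} = ↑(A ^ r) := fun r => by
    ext x
    exact ⟨fun hx => Finset.pow_subset_pow_right h1 hx (Nat.find_spec (hex x)), fun hx => Nat.find_min' _ hx⟩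
  refine ⟨⟨fun x => Nat.find (hex x), A.card + 2, by omega, ?_, fun x => ?_, fun x y => ?_,
    fun r => by rw [hball]; exact Finset.finite_toSet _, fun r => ?_⟩⟩
  · exact Nat.le_zero.1 (Nat.find_min' _ (by rw [pow_zero]; exact Finset.one_mem_one))
  · refine le_antisymm (Nat.find_min' _ (hi _ _ (Nat.find_spec (hex x)))) (Nat.find_min' _ ?_)
    simpa using hi _ _ (Nat.find_spec (hex x⁻¹))
  · exact Nat.find_min' _ (hm _ _ _ _ (Nat.find_spec (hex x)) (Nat.find_spec (hex y)))
  · refine le_trans (Finset.card_le_card (t := A ^ r) fun x hx => ?_)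
      (Finset.card_pow_le.trans (Nat.pow_le_pow_left (by omega) r))
    rw [Set.Finite.mem_toFinset, hball] at hx
    exact hx

/-- the trace along a class of `G` of a function supported on `H` is a sum of traces along classes of `H` -/
theorem class_zero {G : Type} [Group G] (H : Subgroup G) {f : H → ℂ} {F : G → ℂ} (hf : Summable f)
    (h1 : ∀ w : H, F w = f w) (h2 : ∀ w, w ∉ H → F w = 0) (C : ConjClasses G)
    (h : ∀ w : H, ConjClasses.mk (w : G) = C → ∑' g : (ConjClasses.mk w).carrier, f g = 0) :
    ∑' g : C.carrier, F g = 0 := by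
  classical
  rw [tsum_subtype C.carrier F, ← tsum_subtype_eq_of_support_subset (s := (H : Set G)) (fun w hw => by
    by_contra hn
    exact hw (Set.indicator_apply_eq_zero.2 fun _ => h2 w hn))]
  have e : (fun w : (H : Set G) => C.carrier.indicator F w) =
      Set.indicator {w : H | ConjClasses.mk (w : G) = C} f := by
    funext w
    by_cases hw : ConjClasses.mk (w : G) = C
    · rw [Set.indicator_of_mem (ConjClasses.mem_carrier_iff_mk_eq.2 hw)]
      exact (h1 w).trans (Set.indicator_of_mem (s := {w : H | ConjClasses.mk (w : G) = C}) hw f).symm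
    · rw [Set.indicator_of_notMem fun h' => hw (ConjClasses.mem_carrier_iff_mk_eq.1 h')]
      exact (Set.indicator_of_notMem (s := {w : H | ConjClasses.mk (w : G) = C}) hw f).symm
  rw [e]
  have hs := (hf.indicator {w : H | ConjClasses.mk (w : G) = C}).hasSum.tsum_fiberwise ConjClasses.mk
  refine hs.unique ?_
  convert hasSum_zero with c
  obtain ⟨w, rfl⟩ := ConjClasses.exists_rep c
  have hw : ∀ b : ConjClasses.mk ⁻¹' {ConjClasses.mk w},
      ConjClasses.mk ((b : H) : G) = ConjClasses.mk (w : G) := fun b =>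
    ConjClasses.mk_eq_mk_iff_isConj.2 (H.subtype.map_isConj (ConjClasses.mk_eq_mk_iff_isConj.1 b.2))
  by_cases hc : ConjClasses.mk (w : G) = C
  · rw [← h w hc, ConjClasses.carrier_eq_preimage_mk]
    exact tsum_congr fun b => Set.indicator_of_mem (s := {w : H | ConjClasses.mk (w : G) = C})
      ((hw b).trans hc) f
  · exact (tsum_congr fun b => Set.indicator_of_notMem (s := {w : H | ConjClasses.mk (w : G) = C})
      (fun hb => hc ((hw b).symm.trans hb)) f).trans tsum_zero

end Crest.Agent.R192.A
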