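import Crest.Agent.R192.A.Ban
import Crest.Agent.R192.A.Alg
import Crest.Agent.R192.A.Len

/-!
R192/A/Main: reduction of the `ℓ¹`-Bass statement to finitely generated groups and idempotents with a first moment.
-/

set_option autoImplicit false

noncomputable section

namespace Crest.Agent.R192

open Crest.AlgebraR.L1 Filter Topology

namespace A

/-- the trivial weight -/
def W1 (G : Type) [Group G] : Wt G := ⟨fun _ => 1, fun _ => le_rfl, fun _ _ => by norm_num⟩

/-- the linear weight -/
def Ws {G : Type} [Group G] (L : Len G) (s : ℝ) : Wt G where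
  W w := 1 + |s| * L.l w
  one_le w := le_add_of_nonneg_right (by positivity)
  mul_le x y := by
    have h : (L.l (x * y) : ℝ) ≤ L.l x + L.l y := by exact_mod_cast L.l_mul x y
    have h1 := mul_le_mul_of_nonneg_left h (abs_nonneg s)
    have h2 : 0 ≤ |s| * L.l x * (|s| * L.l y) := by positivity
    nlinarith

variable {G : Type} [Group G]

theorem nm_le_map (H : Subgroup G) (L : Len H) (a : MonoidAlgebra ℂ H) :
    nm (Ws L 0) a ≤ nm (W1 G) (MonoidAlgebra.mapDomainRingHom ℂ H.subtype a) := by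
  refine le_of_eq_of_le ?_ (sum_le_nm _ _ (a.coeff.support.map ⟨H.subtype, H.subtype_injective⟩))
  rw [Finset.sum_map]
  refine Finset.sum_congr rfl fun w _ => ?_
  have : (MonoidAlgebra.mapDomainRingHom ℂ H.subtype a).coeff (H.subtype w) = a.coeff w :=
    Finsupp.mapDomain_apply H.subtype_injective a.coeff w
  simp only [Function.Embedding.coeFn_mk, this, Ws, W1, abs_zero, zero_mul, add_zero]

theorem continuous_nm (L : Len G) (a : MonoidAlgebra ℂ G) : Continuous fun s => nm (Ws L s) a :=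
  continuous_finsetSum _ fun _ _ => continuous_const.mul
    (continuous_const.add (continuous_abs.mul continuous_const))

theorem exists_approx (W : Wt G) {q : ℕ} {x : Matrix (Fin q) (Fin q) (BA W)} (hx : x * x = x) {K ε η : ℝ}
    (hK : ∀ i j, ‖x i j‖ < K) (hε : 0 < ε) (hη : 0 < η) :
    ∃ a : Matrix (Fin q) (Fin q) (MonoidAlgebra ℂ G), ∀ i j, ‖ι W (a i j) - x i j‖ < ε ∧
      nm W (a i j) < K ∧ nm W ((a * a - a) i j) < η := by
  have hd : DenseRange (Pi.map fun _ : Fin q => Pi.map fun _ : Fin q => ι W) :=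
    DenseRange.piMap fun _ => DenseRange.piMap fun _ => denseRange_ι W
  have hc : ∀ i j, Continuous fun y : Fin q → Fin q → BA W => y i j := fun i j =>
    (continuous_apply j).comp (continuous_apply i)
  have hev : ∀ᶠ y : Fin q → Fin q → BA W in 𝓝 (fun i j => x i j), ∀ i j, ‖y i j - x i j‖ < ε ∧
      ‖y i j‖ < K ∧ ‖(∑ k, y i k * y k j) - y i j‖ < η := by
    refine eventually_all.2 fun i => eventually_all.2 fun j => Eventually.and ?_ (Eventually.and ?_ ?_)
    · exact ((hc i j).sub continuous_const).norm.continuousAt.eventually_lt continuousAt_const (by simpa)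
    · exact (hc i j).norm.continuousAt.eventually_lt continuousAt_const (hK i j)
    · refine ((continuous_finsetSum _ fun k _ => (hc i k).mul (hc k j)).sub
        (hc i j)).norm.continuousAt.eventually_lt continuousAt_const ?_
      show ‖(∑ k, x i k * x k j) - x i j‖ < η
      rw [← Matrix.mul_apply, hx]
      simpa
  obtain ⟨a, ha⟩ := hd.mem_nhds hev
  refine ⟨Matrix.of a, fun i j => ⟨(ha i j).1, ?_, ?_⟩⟩
  · rw [← norm_ι]; exact (ha i j).2.1
  · rw [← norm_ι, Matrix.sub_apply, Matrix.mul_apply, map_sub, map_sum]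
    simp only [map_mul]
    exact (ha i j).2.2

theorem exists_red {q : ℕ} {e : Fin q → Fin q → G → ℂ} (he : IsL1IdempotentMatrix e) :
    ∃ (H : Subgroup G) (L : Len H) (e' : Fin q → Fin q → H → ℂ) (F : G → ℂ),
      IsL1IdempotentMatrix e' ∧ Summable (fun w => mn (em e' w) * (1 + (L.l w : ℝ))) ∧
      (∀ w : H, F w = ∑ i, e' i i w) ∧ (∀ w, w ∉ H → F w = 0) ∧
      ∀ C : ConjClasses G, classTrace e C.carrier = ∑' g : C.carrier, F g := by
  classical
  choose x0 hx0 using fun i j => exists_co (W1 G) (f := e i j) (by simpa [W1] using he.1 i j)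
  let x : Matrix (Fin q) (Fin q) (BA (W1 G)) := Matrix.of x0
  have hex : e = fun i j w => co (W1 G) w (x i j) := by
    funext i j w; exact (hx0 i j w).symm
  have hx : x * x = x := (isIdem_iff _ x).1 (hex ▸ he)
  obtain ⟨K, hK0, hK⟩ : ∃ K : ℝ, 0 ≤ K ∧ ∀ i j, ‖x i j‖ < K := by
    refine ⟨(∑ p : Fin q × Fin q, ‖x p.1 p.2‖) + 1, by positivity, fun i j => ?_⟩
    exact (Finset.single_le_sum (f := fun p : Fin q × Fin q => ‖x p.1 p.2‖) (fun _ _ => norm_nonneg _)
      (Finset.mem_univ (i, j))).trans_lt (lt_add_one _)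
  obtain ⟨ε, hε, htr⟩ := mat_trace_eq q hK0
  obtain ⟨η, hη, hid⟩ := mat_exists_idem q hK0 (half_pos hε)
  obtain ⟨a, ha⟩ := exists_approx (W1 G) hx hK (half_pos hε) hη
  let S : Finset G := Finset.univ.biUnion fun p : Fin q × Fin q => (a p.1 p.2).coeff.support
  let H : Subgroup G := Subgroup.closure (S : Set G)
  obtain ⟨L⟩ := exists_len H
  let f := MonoidAlgebra.mapDomainRingHom ℂ H.subtype
  let b : Matrix (Fin q) (Fin q) (MonoidAlgebra ℂ H) := Matrix.of fun i j =>
    MonoidAlgebra.comapDomain H.subtype H.subtype_injective (a i j)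
  have hb : ∀ i j, f (b i j) = a i j := fun i j =>
    MonoidAlgebra.mapDomain_comapDomain (fun w hw => ⟨⟨w, Subgroup.subset_closure
      (Finset.mem_coe.2 (Finset.mem_biUnion.2 ⟨(i, j), Finset.mem_univ _, hw⟩))⟩, rfl⟩) H.subtype_injective
  have hb2 : ∀ i j, f ((b * b - b) i j) = (a * a - a) i j := fun i j => by
    simp only [Matrix.sub_apply, Matrix.mul_apply, map_sub, map_sum, map_mul, hb]
  have hev : ∀ᶠ s : ℝ in 𝓝 0, ∀ i j, nm (Ws L s) (b i j) < K ∧ nm (Ws L s) ((b * b - b) i j) < η := by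
    refine eventually_all.2 fun i => eventually_all.2 fun j => Eventually.and ?_ ?_
    · refine (continuous_nm L _).continuousAt.eventually_lt continuousAt_const
        ((nm_le_map H L _).trans_lt ?_)
      rw [hb]; exact (ha i j).2.1
    · refine (continuous_nm L _).continuousAt.eventually_lt continuousAt_const
        ((nm_le_map H L _).trans_lt ?_)
      rw [hb2]; exact (ha i j).2.2
  obtain ⟨s, hs, hs0⟩ := ((hev.filter_mono (nhdsWithin_le_nhds (s := {0}ᶜ))).and self_mem_nhdsWithin).exists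
  have hs1 : 0 < |s| := abs_pos.2 hs0
  obtain ⟨p, hp, hpb⟩ := hid (BA (Ws L s)) ((ι (Ws L s)).mapMatrix b)
    (fun i j => (norm_ι _ _).trans_le (hs i j).1.le) fun i j => by
      rw [← map_mul, ← map_sub]
      exact (norm_ι _ _).trans_le (hs i j).2.le
  obtain ⟨φ, h1, h2, h3, h4⟩ := exists_ext H (Ws L s) (W1 G) fun w => (Ws L s).one_le w
  have hp' : φ.mapMatrix p * φ.mapMatrix p = φ.mapMatrix p := by rw [← map_mul, hp]
  refine ⟨H, L, fun i j w => co _ w (p i j), fun g => ∑ i, co _ g (φ (p i i)), (isIdem_iff _ p).2 hp, ?_,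
    fun w => Finset.sum_congr rfl fun i _ => h3 _ w, fun w hw => Finset.sum_eq_zero fun i _ => h4 _ w hw,
    fun C => ?_⟩
  · simp only [mn, em, Matrix.of_apply, Finset.sum_mul]
    refine summable_sum fun i _ => summable_sum fun j _ => ?_
    refine ((summable_co _ (p i j)).mul_right (1 + |s|⁻¹)).of_nonneg_of_le (fun w => by positivity)
      fun w => ?_
    rw [mul_assoc]
    refine mul_le_mul_of_nonneg_left ?_ (norm_nonneg _)
    show 1 + (L.l w : ℝ) ≤ (1 + |s| * L.l w) * (1 + |s|⁻¹)
    have e1 : (1 + |s| * L.l w) * (1 + |s|⁻¹) = 1 + L.l w + (|s| * L.l w + |s|⁻¹) := by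
      field_simp; ring
    rw [e1]
    exact le_add_of_nonneg_right (by positivity)
  · rw [hex, classTrace_co, ← htr (BA (W1 G)) (tr _ C.carrier) (tr_comm _ C) x (φ.mapMatrix p) hx hp'
      (fun i j => (hK i j).le) fun i j => ?_, ← classTrace_co]
    · rfl
    · have e1 : φ.mapMatrix p i j - x i j =
          φ (p i j - ι (Ws L s) (b i j)) + (ι (W1 G) (a i j) - x i j) := by
        rw [map_sub, h2, ← hb]
        exact (sub_add_sub_cancel _ _ _).symm
      rw [e1]
      have := norm_add_le (φ (p i j - ι (Ws L s) (b i j))) (ι (W1 G) (a i j) - x i j)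
      have := h1 (p i j - ι (Ws L s) (b i j))
      have : ‖p i j - ι (Ws L s) (b i j)‖ ≤ ε / 2 := hpb i j
      have := (ha i j).1
      linarith

end A

theorem stA : StA := by
  intro hc G _ q e he
  obtain ⟨H, L, e', F, he', hs, h1, h2, h3⟩ := A.exists_red he
  obtain ⟨M, hM⟩ := hc H L q e' he' hs
  have key : ∀ C : ConjClasses G, classTrace e C.carrier ≠ 0 →
      ∃ w : H, ConjClasses.mk (w : G) = C ∧ IsOfFinOrder w ∧ ∃ y, IsConj w y ∧ L.l y < M := by
    intro C hC
    by_contra hn
    refine hC ((h3 C).trans (A.class_zero H (summable_sum fun i _ => (he'.1 i i).of_norm) h1 h2 C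
      fun w hw => hM w ?_))
    by_contra hn'
    rw [not_or, not_not] at hn'
    refine hn ⟨w, hw, hn'.1, ?_⟩
    by_contra hn''
    exact hn'.2 fun y hy => not_lt.1 fun hl => hn'' ⟨y, hy, hl⟩
  refine ⟨((L.fin M).image fun y : H => ConjClasses.mk (y : G)).subset fun C hC => ?_, fun g hg => ?_⟩
  · obtain ⟨w, hw, -, y, hy, hl⟩ := key C hC
    exact ⟨y, hl.le, (ConjClasses.mk_eq_mk_iff_isConj.2 (H.subtype.map_isConj hy.symm)).trans hw⟩
  · by_contra hC
    obtain ⟨w, hw, hf, -⟩ := key _ hC
    exact hg ((ConjClasses.mk_eq_mk_iff_isConj.1 hw).isOfFinOrder (H.subtype.isOfFinOrder hf))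

end Crest.Agent.R192
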